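import Vale.Agent.Lib.P072.All.CarMain

namespace Vale.Agent.Results.P072.A_all_measurable

open Vale.Agent.Lib.P072 Set

/-- The permanence conjecture, in its stronger form with measurable rates: for every finite weakly
reversible network in any number of species, with any number of linkage classes and of any
stoichiometric dimension.

Part 1, rates `k t r` measurable in `t` with values in `[ε, 1/ε]`, where solutions are continuous
solutions of the integral equation (solutions in the sense of Caratheodory). For each positive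
initial point there are bounds `δ > 0` and `C`, depending only on the network, on `ε` and on the
point, and for each such rate a global solution staying in the box `[δ, C]^d`; every solution
with this initial point on any `[0, T)`, not assumed positive, agrees with it. For each positive
stoichiometric class there is a compact set, depending only on the network, on `ε` and on the class,
inside the class, which each global solution in the class eventually enters for good, for every
such rate.

Part 2, constant positive rates, where solutions are differentiable solutions of the system: the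
same statement, literally as in the conjecture. -/
theorem result {d : ℕ} (R : Finset (Cx d × Cx d)) (hWR : WeaklyReversible R) :
    (∀ ε : ℝ, 0 < ε →
      (∀ x₀ : Fin d → ℝ, (∀ i, 0 < x₀ i) →
        ∃ δ C : ℝ, 0 < δ ∧ ∀ k : ℝ → Cx d × Cx d → ℝ, (∀ r, Measurable fun t => k t r) →
          (∀ t r, ε ≤ k t r ∧ k t r ≤ ε⁻¹) →
          ∃ x : ℝ → Fin d → ℝ, x 0 = x₀ ∧ (∀ T, IsCarSolution R k T x) ∧
            (∀ t, 0 ≤ t → ∀ i, δ ≤ x t i ∧ x t i ≤ C) ∧
            ∀ (T : ℝ) (y : ℝ → Fin d → ℝ), IsCarSolution R k T y → y 0 = x₀ →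
              ∀ t ∈ Ico 0 T, y t = x t) ∧
      (∀ c₀ : Fin d → ℝ, (∀ i, 0 < c₀ i) →
        ∃ K : Set (Fin d → ℝ), IsCompact K ∧
          (∀ y ∈ K, (∀ i, 0 < y i) ∧ (fun i => y i - c₀ i) ∈ stoich R) ∧
          ∀ k : ℝ → Cx d × Cx d → ℝ, (∀ r, Measurable fun t => k t r) →
          (∀ t r, ε ≤ k t r ∧ k t r ≤ ε⁻¹) →
          ∀ x : ℝ → Fin d → ℝ, (∀ T, IsCarSolution R k T x) → (∀ i, 0 < x 0 i) →
            (fun i => x 0 i - c₀ i) ∈ stoich R → ∃ t₁ : ℝ, ∀ t, t₁ ≤ t → x t ∈ K)) ∧
    (∀ κ : Cx d × Cx d → ℝ, (∀ r ∈ R, 0 < κ r) →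
      (∀ x₀ : Fin d → ℝ, (∀ i, 0 < x₀ i) →
        ∃ x : ℝ → Fin d → ℝ, x 0 = x₀ ∧ (∀ T, IsPosSolution R (fun _ => κ) T x) ∧
          ∀ (T : ℝ) (y : ℝ → Fin d → ℝ), IsSolution R κ T y → y 0 = x₀ →
            ∀ t ∈ Ico 0 T, y t = x t) ∧
      (∀ c₀ : Fin d → ℝ, (∀ i, 0 < c₀ i) →
        ∃ K : Set (Fin d → ℝ), IsCompact K ∧
          (∀ y ∈ K, (∀ i, 0 < y i) ∧ (fun i => y i - c₀ i) ∈ stoich R) ∧
          ∀ x : ℝ → Fin d → ℝ, (∀ T, IsSolution R κ T x) → (∀ i, 0 < x 0 i) →
            (fun i => x 0 i - c₀ i) ∈ stoich R → ∃ t₁ : ℝ, ∀ t, t₁ ≤ t → x t ∈ K)) := by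
  obtain ⟨hU, hA⟩ := permanence_of_input (Vale.Agent.Lib.P072.All.polyInput d) hWR
  refine ⟨fun ε hε => car_permanence_all hWR hε, fun κ hκ => ⟨fun x₀ hx₀ => ?_, fun c₀ hc₀ => ?_⟩⟩
  · exact exists_unique_global_of hU hκ hx₀
  · exact compact_absorbing_of hU hA hκ hc₀

end Vale.Agent.Results.P072.A_all_measurable
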