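import Vale.Agent.Lib.P072.All.Family

namespace Vale.Agent.Results.P072.A_all_permanent

open Vale.Agent.Lib.P072 Set

/-- The permanence conjecture: for every finite weakly reversible network in any number of species,
with any number of linkage classes and of any stoichiometric dimension.

Constant positive rates: from each positive initial point there is a global positive solution, each
solution with this initial point on any `[0, T)` agrees with it (so no solution blows up or leaves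
the positive orthant), and each positive stoichiometric class contains a compact set which every
solution in the class eventually enters for good.

Rates `k t r` in `[ε, 1/ε]` depending on time in an arbitrary way: each positive initial point has
positive lower and upper bounds valid for all solutions, all such rates and all existence times, and
for each stoichiometric class there is a box `[δ₀, C₀]^d`, depending only on the network, on `ε` and
on the class, which eventually contains each global positive solution in that class. -/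
theorem result {d : ℕ} (R : Finset (Cx d × Cx d)) (hWR : WeaklyReversible R) :
    (∀ κ : Cx d × Cx d → ℝ, (∀ r ∈ R, 0 < κ r) →
      (∀ x₀ : Fin d → ℝ, (∀ i, 0 < x₀ i) →
        ∃ x : ℝ → Fin d → ℝ, x 0 = x₀ ∧ (∀ T, IsPosSolution R (fun _ => κ) T x) ∧
          ∀ (T : ℝ) (y : ℝ → Fin d → ℝ), IsSolution R κ T y → y 0 = x₀ →
            ∀ t ∈ Ico 0 T, y t = x t) ∧
      (∀ c₀ : Fin d → ℝ, (∀ i, 0 < c₀ i) →
        ∃ K : Set (Fin d → ℝ), IsCompact K ∧
          (∀ y ∈ K, (∀ i, 0 < y i) ∧ (fun i => y i - c₀ i) ∈ stoich R) ∧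
          ∀ x : ℝ → Fin d → ℝ, (∀ T, IsSolution R κ T x) → (∀ i, 0 < x 0 i) →
            (fun i => x 0 i - c₀ i) ∈ stoich R → ∃ t₁ : ℝ, ∀ t, t₁ ≤ t → x t ∈ K)) ∧
    (∀ ε : ℝ, 0 < ε →
      (∀ x₀ : Fin d → ℝ, (∀ i, 0 < x₀ i) →
        ∃ δ C : ℝ, 0 < δ ∧ ∀ (k : ℝ → Cx d × Cx d → ℝ) (T : ℝ) (x : ℝ → Fin d → ℝ),
          (∀ t r, ε ≤ k t r ∧ k t r ≤ ε⁻¹) → x 0 = x₀ → IsPosSolution R k T x →
          ∀ t ∈ Ico 0 T, ∀ i, δ ≤ x t i ∧ x t i ≤ C) ∧
      (∀ c₀ : Fin d → ℝ, (∀ i, 0 < c₀ i) →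
        ∃ δ₀ C₀ : ℝ, 0 < δ₀ ∧ ∀ (k : ℝ → Cx d × Cx d → ℝ) (x : ℝ → Fin d → ℝ),
          (∀ t r, ε ≤ k t r ∧ k t r ≤ ε⁻¹) → (∀ T, IsPosSolution R k T x) →
          (fun i => x 0 i - c₀ i) ∈ stoich R →
          ∃ t₁ : ℝ, ∀ t, t₁ ≤ t → ∀ i, δ₀ ≤ x t i ∧ x t i ≤ C₀)) := by
  obtain ⟨hU, hA⟩ := permanence_of_input (Vale.Agent.Lib.P072.All.polyInput d) hWR
  exact ⟨fun κ hκ => ⟨fun _ hx₀ => exists_unique_global_of hU hκ hx₀,
      fun _ hc₀ => compact_absorbing_of hU hA hκ hc₀⟩,
    fun ε hε => ⟨fun _ hx₀ => hU ε hε _ hx₀, fun _ hc₀ => hA ε hε _ hc₀⟩⟩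

end Vale.Agent.Results.P072.A_all_permanent
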