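import Vale.Agent.Lib.P072.Perm

namespace Vale.Agent.Results.P072.A_dim_two_absorbing

open Vale.Agent.Lib.P072

/-- Weakly reversible mass-action systems with a stoichiometric subspace of dimension two, any
number of species and of linkage classes and rates `k t r` in `[ε, 1/ε]` depending on time in an
arbitrary way: (1) each positive initial point has positive lower and upper bounds valid for all
solutions, all rates and all existence times; (2) for each stoichiometric class there is a box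
`[δ₀, C₀]^d`, depending only on the network, on `ε` and on the class, which eventually contains
each global positive solution in that class. -/
theorem result {d : ℕ} (R : Finset (Cx d × Cx d)) (hWR : WeaklyReversible R)
    (hdim : Module.finrank ℝ (stoich R) = 2) (ε : ℝ) (hε : 0 < ε) :
    (∀ x₀ : Fin d → ℝ, (∀ i, 0 < x₀ i) →
      ∃ δ C : ℝ, 0 < δ ∧ ∀ (k : ℝ → Cx d × Cx d → ℝ) (T : ℝ) (x : ℝ → Fin d → ℝ),
        (∀ t r, ε ≤ k t r ∧ k t r ≤ ε⁻¹) → x 0 = x₀ → IsPosSolution R k T x →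
        ∀ t ∈ Set.Ico 0 T, ∀ i, δ ≤ x t i ∧ x t i ≤ C) ∧
    (∀ c₀ : Fin d → ℝ, (∀ i, 0 < c₀ i) →
      ∃ δ₀ C₀ : ℝ, 0 < δ₀ ∧ ∀ (k : ℝ → Cx d × Cx d → ℝ) (x : ℝ → Fin d → ℝ),
        (∀ t r, ε ≤ k t r ∧ k t r ≤ ε⁻¹) → (∀ T, IsPosSolution R k T x) →
        (fun i => x 0 i - c₀ i) ∈ stoich R →
        ∃ t₁ : ℝ, ∀ t, t₁ ≤ t → ∀ i, δ₀ ≤ x t i ∧ x t i ≤ C₀) :=
  ⟨fun _ hx₀ => uniform_bounds hWR hdim hε hx₀, fun _ hc₀ => absorbing hWR hdim hε hc₀⟩

end Vale.Agent.Results.P072.A_dim_two_absorbing
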