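import Vale.Agent.Lib.P072.Main

namespace Vale.Agent.Results.P072.A_dim_two_bounded

open Vale.Agent.Lib.P072

/-- Every weakly reversible mass-action system whose stoichiometric subspace has dimension two
has bounded positive trajectories, for any number of species and linkage classes. The bound
depends only on the network, on `ε` and on the initial point, and it is uniform over all
time-dependent rates with values in `[ε, 1/ε]` and over all existence times `T`. -/
theorem result {d : ℕ} (R : Finset (Cx d × Cx d)) (hWR : WeaklyReversible R)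
    (hdim : Module.finrank ℝ (stoich R) = 2) (ε : ℝ) (hε : 0 < ε)
    (x₀ : Fin d → ℝ) (hx₀ : ∀ i, 0 < x₀ i) :
    ∃ C : ℝ, ∀ (k : ℝ → Cx d × Cx d → ℝ) (T : ℝ) (x : ℝ → Fin d → ℝ),
      (∀ t r, ε ≤ k t r ∧ k t r ≤ ε⁻¹) → x 0 = x₀ → IsPosSolution R k T x →
      ∀ t ∈ Set.Ico 0 T, ∀ i, x t i ≤ C :=
  bounded_of_finrank_two hWR hdim hε hx₀

end Vale.Agent.Results.P072.A_dim_two_bounded
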