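import Vale.Agent.Lib.P072.Perm2

namespace Vale.Agent.Results.P072.A_dim_two_permanent

open Vale.Agent.Lib.P072 Set

/-- Permanence of weakly reversible mass-action systems with a stoichiometric subspace of dimension
two, any number of species and of linkage classes, any positive constant rates: from each positive
initial point there is a global positive solution, each solution with this initial point on any
`[0, T)` agrees with it (so no solution blows up or leaves the positive orthant), and each positive
stoichiometric class contains a compact set which every solution in the class eventually enters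
for good. -/
theorem result {d : ℕ} (R : Finset (Cx d × Cx d)) (hWR : WeaklyReversible R)
    (hdim : Module.finrank ℝ (stoich R) = 2) (κ : Cx d × Cx d → ℝ) (hκ : ∀ r ∈ R, 0 < κ r) :
    (∀ x₀ : Fin d → ℝ, (∀ i, 0 < x₀ i) →
      ∃ x : ℝ → Fin d → ℝ, x 0 = x₀ ∧ (∀ T, IsPosSolution R (fun _ => κ) T x) ∧
        ∀ (T : ℝ) (y : ℝ → Fin d → ℝ), IsSolution R κ T y → y 0 = x₀ →
          ∀ t ∈ Ico 0 T, y t = x t) ∧
    (∀ c₀ : Fin d → ℝ, (∀ i, 0 < c₀ i) →
      ∃ K : Set (Fin d → ℝ), IsCompact K ∧
        (∀ y ∈ K, (∀ i, 0 < y i) ∧ (fun i => y i - c₀ i) ∈ stoich R) ∧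
        ∀ x : ℝ → Fin d → ℝ, (∀ T, IsSolution R κ T x) → (∀ i, 0 < x 0 i) →
          (fun i => x 0 i - c₀ i) ∈ stoich R → ∃ t₁ : ℝ, ∀ t, t₁ ≤ t → x t ∈ K) :=
  ⟨fun _ hx₀ => exists_unique_global hWR hdim hκ hx₀, fun _ hc₀ => compact_absorbing hWR hdim hκ hc₀⟩

end Vale.Agent.Results.P072.A_dim_two_permanent
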